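import Vale.Agent.Lib.P295.Main

/-!
# P295: stable coordinates of total degree at most two are coordinates

For every `n` and every polynomial `f` in `n` variables over the complex numbers of total degree
at most `2`: if `f` is a stable coordinate then `f` is a coordinate.
-/

namespace Vale.Agent.Results.P295.A_DegreeTwo

open MvPolynomial

/-- `f` is a coordinate of the polynomial ring over the complex numbers in the variables indexed
by `σ`: some algebra automorphism of this ring maps one of the variables to `f`. -/
def IsCoordinate {σ : Type} (f : MvPolynomial σ ℂ) : Prop :=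
  ∃ (φ : MvPolynomial σ ℂ ≃ₐ[ℂ] MvPolynomial σ ℂ) (i : σ), φ (X i) = f

/-- `f`, a polynomial in `n` variables, is a stable coordinate: for some `m ≥ 1` it is a
coordinate of the polynomial ring in `n + m` variables obtained by adjoining `m` new variables
(the old variables are indexed by `Sum.inl`, the new ones by `Sum.inr`). -/
def IsStableCoordinate {n : ℕ} (f : MvPolynomial (Fin n) ℂ) : Prop :=
  ∃ m : ℕ, 1 ≤ m ∧ IsCoordinate (rename (Sum.inl : Fin n → Fin n ⊕ Fin m) f)

theorem result (n : ℕ) (f : MvPolynomial (Fin n) ℂ) (hdeg : f.totalDegree ≤ 2)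
    (hf : IsStableCoordinate f) : IsCoordinate f := by
  obtain ⟨m, _, hm⟩ := hf
  exact Vale.Agent.Lib.P295.stable_coord_of_totalDegree_le_two f hdeg ⟨m, hm⟩

end Vale.Agent.Results.P295.A_DegreeTwo
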